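import Mathlib

/-!
# P201 (helper95): an abstract criterion for the absence of zero divisors

`R` is a `K`-algebra and `I` a two-sided ideal (given as a `K`-submodule).  If `I` admits a
left-linear splitting `D` of an evaluation map `(X →₀ R) → I` (so `I` is projective as a left
module), then the order function of the `I`-adic filtration is additive as soon as it is additive
on pairs `(a, b)` with `b ∉ I`.
-/

namespace Vale.Agent.P201x95

variable {K : Type*} [CommRing K] {R : Type*} [Ring R] [Algebra K R]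

/-- The `I`-adic filtration, with `fil I 0 = ⊤`. -/
def fil (I : Submodule K R) : ℕ → Submodule K R
  | 0 => ⊤
  | (m + 1) => I ^ (m + 1)

/-- `I` is a two-sided ideal. -/
structure IsTwoSided (I : Submodule K R) : Prop where
  left : ∀ r a, a ∈ I → r * a ∈ I
  right : ∀ a r, a ∈ I → a * r ∈ I

variable {I : Submodule K R}

lemma fil_zero : fil I 0 = ⊤ := rfl
lemma fil_succ (m : ℕ) : fil I (m + 1) = I ^ (m + 1) := rfl

lemma fil_mul_mem (hI : IsTwoSided I) (m : ℕ) {a b : R} (ha : a ∈ fil I m) (hb : b ∈ I) :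
    a * b ∈ fil I (m + 1) := by
  cases m with
  | zero => rw [fil_succ, zero_add, pow_one]; exact hI.left _ _ hb
  | succ m => rw [fil_succ, pow_succ]; exact Submodule.mul_mem_mul ha hb

lemma mul_fil_mem (hI : IsTwoSided I) (m : ℕ) {a b : R} (hb : b ∈ I) (ha : a ∈ fil I m) :
    b * a ∈ fil I (m + 1) := by
  cases m with
  | zero => rw [fil_succ, zero_add, pow_one]; exact hI.right _ _ hb
  | succ m => rw [fil_succ, pow_succ']; exact Submodule.mul_mem_mul hb ha

lemma fil_succ_induction (m : ℕ) {p : R → Prop}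
    (hmul : ∀ a b, a ∈ fil I m → b ∈ I → p (a * b))
    (hadd : ∀ x y, p x → p y → p (x + y)) {x : R} (hx : x ∈ fil I (m + 1)) : p x := by
  cases m with
  | zero =>
    rw [fil_succ, zero_add, pow_one] at hx
    have := hmul 1 x (by rw [fil_zero]; trivial) hx
    rwa [one_mul] at this
  | succ m =>
    rw [fil_succ, pow_succ] at hx
    exact Submodule.mul_induction_on hx (fun a ha b hb => hmul a b ha hb) hadd

lemma fil_succ_le (hI : IsTwoSided I) (m : ℕ) {x : R} (hx : x ∈ fil I (m + 1)) : x ∈ I :=
  fil_succ_induction m (p := fun x => x ∈ I) (fun a b _ hb => hI.left a b hb)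
    (fun _ _ hx hy => add_mem hx hy) hx

lemma fil_right (hI : IsTwoSided I) (m : ℕ) {a : R} (ha : a ∈ fil I m) (r : R) :
    a * r ∈ fil I m := by
  cases m with
  | zero => rw [fil_zero]; trivial
  | succ m =>
    refine fil_succ_induction m (p := fun x => x * r ∈ fil I (m + 1)) ?_ ?_ ha
    · intro a b ha hb
      rw [mul_assoc]
      exact fil_mul_mem hI m ha (hI.right _ _ hb)
    · intro x y hx hy
      rw [add_mul]; exact add_mem hx hy

/-- Additivity of the order function on elements of exact orders `m` and `n`. -/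
def Additive (I : Submodule K R) (m n : ℕ) : Prop :=
  ∀ a b : R, a ∈ fil I m → a ∉ fil I (m + 1) → b ∈ fil I n → b ∉ fil I (n + 1) →
    a * b ∉ fil I (m + n + 1)

section fox
variable {X : Type*} (e : X → R) (D : R →ₗ[K] (X →₀ R))

lemma D_mem (hI : IsTwoSided I) (hD : ∀ r a, a ∈ I → D (r * a) = r • D a) (m : ℕ) {a : R}
    (ha : a ∈ fil I (m + 1)) (x : X) : D a x ∈ fil I m := by
  refine fil_succ_induction m (p := fun a => D a x ∈ fil I m) ?_ ?_ ha
  · intro r b hr hb
    rw [hD r b hb, Finsupp.smul_apply, smul_eq_mul]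
    exact fil_right hI m hr _
  · intro u v hu hv
    rw [map_add, Finsupp.add_apply]; exact add_mem hu hv

lemma mem_of_D (hI : IsTwoSided I) (he : ∀ x, e x ∈ I)
    (hE : ∀ a, a ∈ I → Finsupp.linearCombination R e (D a) = a) (m : ℕ) {a : R} (ha : a ∈ I)
    (h : ∀ x, D a x ∈ fil I m) : a ∈ fil I (m + 1) := by
  rw [← hE a ha, Finsupp.linearCombination_apply, Finsupp.sum]
  refine Submodule.sum_mem _ fun x _ => ?_
  rw [smul_eq_mul]
  exact fil_mul_mem hI m (h x) (he x)

lemma additive_step (hI : IsTwoSided I) (he : ∀ x, e x ∈ I)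
    (hD : ∀ r a, a ∈ I → D (r * a) = r • D a)
    (hE : ∀ a, a ∈ I → Finsupp.linearCombination R e (D a) = a) (m n : ℕ)
    (h : Additive I m n) : Additive I m (n + 1) := by
  intro a b ha ha' hb hb' hab
  have hbI : b ∈ I := fil_succ_le hI n hb
  obtain ⟨x, hx⟩ : ∃ x, D b x ∉ fil I (n + 1) := by
    by_contra hcon
    push Not at hcon
    exact hb' (mem_of_D e D hI he hE (n + 1) hbI hcon)
  have h1 : D b x ∈ fil I n := D_mem D hI hD n hb x
  have h2 := h a (D b x) ha ha' h1 hx
  apply h2
  have h3 : D (a * b) x ∈ fil I (m + n + 1) := D_mem D hI hD (m + n + 1) hab x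
  rwa [hD a b hbI, Finsupp.smul_apply, smul_eq_mul] at h3

lemma additive_of_zero (hI : IsTwoSided I) (he : ∀ x, e x ∈ I)
    (hD : ∀ r a, a ∈ I → D (r * a) = r • D a)
    (hE : ∀ a, a ∈ I → Finsupp.linearCombination R e (D a) = a) (m : ℕ)
    (h : Additive I m 0) (n : ℕ) : Additive I m n := by
  induction n with
  | zero => exact h
  | succ n ih => exact additive_step e D hI he hD hE m n ih

end fox

section involution
variable (S : R →ₗ[K] R)

lemma S_mem (hI : IsTwoSided I) (hS : ∀ a b, S (a * b) = S b * S a) (hSI : ∀ a, a ∈ I → S a ∈ I)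
    (m : ℕ) : ∀ {a : R}, a ∈ fil I m → S a ∈ fil I m := by
  induction m with
  | zero => intro a _; rw [fil_zero]; trivial
  | succ m ih =>
    intro a ha
    refine fil_succ_induction m (p := fun a => S a ∈ fil I (m + 1)) ?_ ?_ ha
    · intro u v hu hv
      rw [hS]
      exact mul_fil_mem hI m (hSI v hv) (ih hu)
    · intro u v hu hv
      rw [map_add]; exact add_mem hu hv

lemma additive_symm (hI : IsTwoSided I) (hS : ∀ a b, S (a * b) = S b * S a)
    (hSS : ∀ a, S (S a) = a) (hSI : ∀ a, a ∈ I → S a ∈ I) (m n : ℕ)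
    (h : Additive I m n) : Additive I n m := by
  intro a b ha ha' hb hb' hab
  have key : ∀ k (c : R), S c ∈ fil I k → c ∈ fil I k := by
    intro k c hc
    have := S_mem S hI hS hSI k hc
    rwa [hSS] at this
  refine h (S b) (S a) (S_mem S hI hS hSI m hb) (fun hc => hb' (key _ _ hc))
    (S_mem S hI hS hSI n ha) (fun hc => ha' (key _ _ hc)) ?_
  rw [← hS, add_comm m n]
  exact S_mem S hI hS hSI _ hab

end involution

/-- The abstract criterion. -/
theorem noZeroDivisors_of_fox {X : Type*} (e : X → R) (D : R →ₗ[K] (X →₀ R)) (S : R →ₗ[K] R)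
    (hI : IsTwoSided I) (he : ∀ x, e x ∈ I)
    (hD : ∀ r a, a ∈ I → D (r * a) = r • D a)
    (hE : ∀ a, a ∈ I → Finsupp.linearCombination R e (D a) = a)
    (hS : ∀ a b, S (a * b) = S b * S a) (hSS : ∀ a, S (S a) = a) (hSI : ∀ a, a ∈ I → S a ∈ I)
    (hprime : ∀ a b, a * b ∈ I → a ∈ I ∨ b ∈ I)
    (hsep : ∀ a : R, (∀ m, a ∈ I ^ (m + 1)) → a = 0) : NoZeroDivisors R where
  eq_zero_or_eq_zero_of_mul_eq_zero {a b} hab := by
    classical
    by_contra hcon
    push Not at hcon
    obtain ⟨ha, hb⟩ := hcon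
    have h00 : Additive I 0 0 := by
      intro a b _ ha' _ hb' hab'
      rw [fil_succ, zero_add, pow_one] at ha' hb'
      rw [fil_succ] at hab'
      simp only [zero_add, pow_one] at hab'
      rcases hprime a b hab' with h | h
      · exact ha' h
      · exact hb' h
    have h0n : ∀ n, Additive I 0 n := additive_of_zero e D hI he hD hE 0 h00
    have hn0 : ∀ n, Additive I n 0 := fun n => additive_symm S hI hS hSS hSI 0 n (h0n n)
    have hmn : ∀ m n, Additive I m n := fun m => additive_of_zero e D hI he hD hE m (hn0 m)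
    have order : ∀ c : R, c ≠ 0 → ∃ m, c ∈ fil I m ∧ c ∉ fil I (m + 1) := by
      intro c hc
      have hex : ∃ m, c ∉ fil I (m + 1) := by
        by_contra hcon
        push Not at hcon
        exact hc (hsep c hcon)
      refine ⟨Nat.find hex, ?_, Nat.find_spec hex⟩
      rcases Nat.eq_zero_or_pos (Nat.find hex) with h | h
      · rw [h, fil_zero]; trivial
      · obtain ⟨k, hk⟩ := Nat.exists_eq_succ_of_ne_zero (Nat.pos_iff_ne_zero.1 h)
        have := Nat.find_min hex (m := k) (by omega)
        rw [hk]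
        exact not_not.1 this
    obtain ⟨m, hm, hm'⟩ := order a ha
    obtain ⟨n, hn, hn'⟩ := order b hb
    apply hmn m n a b hm hm' hn hn'
    rw [hab]
    exact zero_mem _

end Vale.Agent.P201x95
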